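import Vale.Agent.P372.Rep

open Matrix Filter Topology
open scoped ComplexOrder MatrixOrder Kronecker ENNReal

namespace Vale.Agent.Results.P372.ZeroKey

/-- density operator -/
def IsState {ι : Type} [Fintype ι] (ρ : Matrix ι ι ℂ) : Prop :=
  ρ.PosSemidef ∧ ρ.trace = 1

/-- finite convex combination of product states -/
def Separable {a b : ℕ} (ρ : Matrix (Fin a × Fin b) (Fin a × Fin b) ℂ) : Prop :=
  ∃ (k : ℕ) (p : Fin k → ℝ) (α : Fin k → Matrix (Fin a) (Fin a) ℂ)
    (β : Fin k → Matrix (Fin b) (Fin b) ℂ),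
    (∀ i, 0 ≤ p i) ∧ ∑ i, p i = 1 ∧ (∀ i, IsState (α i)) ∧ (∀ i, IsState (β i)) ∧
      ρ = ∑ i, (p i : ℂ) • (α i ⊗ₖ β i)

/-- partial trace over the first factor -/
def traceAB {U E : Type} [Fintype U] (X : Matrix (U × E) (U × E) ℂ) : Matrix E E ℂ :=
  Matrix.of fun e e' => ∑ u, X (u, e) (u, e')

/-- the vector `ψ` on `AB ⊗ E` is a purification of `ρ` -/
def Purifies {a b e : ℕ} (ψ : (Fin a × Fin b) × Fin e → ℂ)
    (ρ : Matrix (Fin a × Fin b) (Fin a × Fin b) ℂ) : Prop :=
  ∀ u v, ρ u v = ∑ k, ψ (u, k) * star (ψ (v, k))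

/-- `n` copies of `ψ`, as a vector on `A^n B^n ⊗ E^n` -/
def tensorPow {a b e : ℕ} (ψ : (Fin a × Fin b) × Fin e → ℂ) (n : ℕ) :
    (Fin (a ^ n) × Fin (b ^ n)) × (Fin n → Fin e) → ℂ :=
  fun x => ∏ i, ψ ((finFunctionFinEquiv.symm x.1.1 i, finFunctionFinEquiv.symm x.1.2 i), x.2 i)

/-- key values -/
abbrev Key (l : ℕ) : Type := Fin l → Bool

/-- a measurement with outcomes in the keys -/
def IsPOVM {l d : ℕ} (M : Key l → Matrix (Fin d) (Fin d) ℂ) : Prop :=
  (∀ z, (M z).PosSemidef) ∧ ∑ z, M z = 1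

/-- Two-way protocols with key length `l` when Alice holds dimension `a` and Bob dimension `b`.
Either both measure their key registers, or one party applies a local instrument (outcome `i`
with Kraus operators `K i k`, into a space whose dimension may depend on `i`), announces `i`
publicly, and the protocol continues depending on `i`. -/
inductive Protocol (l : ℕ) : ℕ → ℕ → Type
  | output {a b : ℕ} (M : Key l → Matrix (Fin a) (Fin a) ℂ) (N : Key l → Matrix (Fin b) (Fin b) ℂ)
      (hM : IsPOVM M) (hN : IsPOVM N) : Protocol l a b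
  | alice {a b : ℕ} (m r : ℕ) (a' : Fin m → ℕ)
      (K : (i : Fin m) → Fin r → Matrix (Fin (a' i)) (Fin a) ℂ)
      (hK : ∑ i, ∑ k, (K i k)ᴴ * K i k = 1)
      (next : (i : Fin m) → Protocol l (a' i) b) : Protocol l a b
  | bob {a b : ℕ} (m r : ℕ) (b' : Fin m → ℕ)
      (K : (i : Fin m) → Fin r → Matrix (Fin (b' i)) (Fin b) ℂ)
      (hK : ∑ i, ∑ k, (K i k)ᴴ * K i k = 1)
      (next : (i : Fin m) → Protocol l a (b' i)) : Protocol l a b

/-- complete public transcripts -/
def Protocol.Transcript {l : ℕ} : {a b : ℕ} → Protocol l a b → Type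
  | _, _, .output _ _ _ _ => Unit
  | _, _, .alice m _ _ _ _ next => (i : Fin m) × (next i).Transcript
  | _, _, .bob m _ _ _ _ next => (i : Fin m) × (next i).Transcript

/-- transcripts form a finite type -/
@[reducible] def Protocol.fin {l : ℕ} : {a b : ℕ} → (p : Protocol l a b) → Fintype p.Transcript
  | _, _, .output _ _ _ _ => inferInstanceAs (Fintype Unit)
  | _, _, .alice m _ _ _ _ next => @Sigma.instFintype (Fin m) _ (fun i => (next i).fin) _
  | _, _, .bob m _ _ _ _ next => @Sigma.instFintype (Fin m) _ (fun i => (next i).fin) _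

instance {l a b : ℕ} (p : Protocol l a b) : Fintype p.Transcript := p.fin

noncomputable instance {l a b : ℕ} (p : Protocol l a b) : DecidableEq p.Transcript :=
  Classical.decEq _

/-- unnormalised state of `E` jointly with transcript `t` and key values `z = (z_A, z_B)`,
when the protocol is run on the state `ω` of `AB ⊗ E` -/
noncomputable def Protocol.run {l : ℕ} {E : Type} [Fintype E] [DecidableEq E] :
    {a b : ℕ} → (p : Protocol l a b) →
      Matrix ((Fin a × Fin b) × E) ((Fin a × Fin b) × E) ℂ → p.Transcript → Key l × Key l →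
      Matrix E E ℂ
  | _, _, .output M N _ _, ω, _, z => traceAB (((M z.1 ⊗ₖ N z.2) ⊗ₖ (1 : Matrix E E ℂ)) * ω)
  | _, b, .alice _ _ _ K _ next, ω, t, z => (next t.1).run
      (∑ k, ((K t.1 k ⊗ₖ (1 : Matrix (Fin b) (Fin b) ℂ)) ⊗ₖ (1 : Matrix E E ℂ)) * ω *
        ((K t.1 k ⊗ₖ (1 : Matrix (Fin b) (Fin b) ℂ)) ⊗ₖ (1 : Matrix E E ℂ))ᴴ) t.2 z
  | a, _, .bob _ _ _ K _ next, ω, t, z => (next t.1).run
      (∑ k, (((1 : Matrix (Fin a) (Fin a) ℂ) ⊗ₖ K t.1 k) ⊗ₖ (1 : Matrix E E ℂ)) * ω *
        (((1 : Matrix (Fin a) (Fin a) ℂ) ⊗ₖ K t.1 k) ⊗ₖ (1 : Matrix E E ℂ))ᴴ) t.2 z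

/-- final state on `E' = (E, transcript)` and the classical registers `K_A K_B` -/
noncomputable def finalState {l a b : ℕ} {E : Type} [Fintype E] [DecidableEq E]
    (p : Protocol l a b) (ω : Matrix ((Fin a × Fin b) × E) ((Fin a × Fin b) × E) ℂ) :
    Matrix ((E × p.Transcript) × (Key l × Key l)) ((E × p.Transcript) × (Key l × Key l)) ℂ :=
  blockDiagonal fun z => blockDiagonal fun t => p.run ω t z

/-- ideal key: uniform, perfectly correlated, in product with `σ` -/
noncomputable def idealState (l : ℕ) {F : Type} (σ : Matrix F F ℂ) :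
    Matrix (F × (Key l × Key l)) (F × (Key l × Key l)) ℂ :=
  blockDiagonal fun z => if z.1 = z.2 then ((2 : ℂ) ^ l)⁻¹ • σ else 0

/-- trace norm -/
noncomputable def traceNorm {ι : Type} [Fintype ι] [DecidableEq ι] (X : Matrix ι ι ℂ) : ℝ :=
  (cfc Real.sqrt (Xᴴ * X)).trace.re

/-- the protocol run on the pure state `φ` has error `ε` -/
def HasError {l a b : ℕ} {E : Type} [Fintype E] [DecidableEq E] (p : Protocol l a b)
    (φ : (Fin a × Fin b) × E → ℂ) (ε : ℝ) : Prop :=
  ∃ σ : Matrix (E × p.Transcript) (E × p.Transcript) ℂ, IsState σ ∧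
    traceNorm (finalState p (vecMulVec φ (star φ)) - idealState l σ) ≤ ε

/-- distillable secret key, computed from the purification `ψ` -/
noncomputable def keyRate {a b e : ℕ} (ψ : (Fin a × Fin b) × Fin e → ℂ) : ℝ≥0∞ :=
  ⨆ (l : ℕ → ℕ) (p : (n : ℕ) → Protocol (l n) (a ^ n) (b ^ n)) (ε : ℕ → ℝ)
    (_ : Tendsto ε atTop (𝓝 0)) (_ : ∀ n, HasError (p n) (tensorPow ψ n) (ε n)),
    liminf (fun n : ℕ => (l n : ℝ≥0∞) / (n : ℝ≥0∞)) atTop

open Vale.Agent.P372

lemma traceAB_cyc {U U' E : Type} [Fintype U] [Fintype U'] [Fintype E] [DecidableEq E]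
    (M : Matrix U U' ℂ) (X : Matrix (U' × E) (U × E) ℂ) :
    traceAB (X * (M ⊗ₖ (1 : Matrix E E ℂ))) = traceAB ((M ⊗ₖ (1 : Matrix E E ℂ)) * X) := by
  ext e e'
  simp only [traceAB, Matrix.of_apply, Matrix.mul_apply, Fintype.sum_prod_type,
    kroneckerMap_apply, Matrix.one_apply, mul_ite, ite_mul, mul_one, mul_zero, zero_mul,
    Finset.sum_ite_eq, Finset.sum_ite_eq', Finset.mem_univ, if_true]
  rw [Finset.sum_comm]
  exact Finset.sum_congr rfl fun u _ => Finset.sum_congr rfl fun u' _ => mul_comm _ _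

lemma traceAB_sum {U E ι : Type} [Fintype U] (s : Finset ι) (X : ι → Matrix (U × E) (U × E) ℂ) :
    traceAB (∑ k ∈ s, X k) = ∑ k ∈ s, traceAB (X k) := by
  ext e e'
  simp only [traceAB, Matrix.of_apply, Matrix.sum_apply]
  rw [Finset.sum_comm]

lemma sum_kron {U V W X ι : Type} (s : Finset ι) (P : ι → Matrix U V ℂ) (Q : Matrix W X ℂ) :
    (∑ k ∈ s, P k) ⊗ₖ Q = ∑ k ∈ s, P k ⊗ₖ Q := by
  ext u v
  simp only [kroneckerMap_apply, Matrix.sum_apply, Finset.sum_mul]

lemma kron_sum {U V W X ι : Type} (s : Finset ι) (P : Matrix U V ℂ) (Q : ι → Matrix W X ℂ) :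
    P ⊗ₖ (∑ k ∈ s, Q k) = ∑ k ∈ s, P ⊗ₖ Q k := by
  ext u v
  simp only [kroneckerMap_apply, Matrix.sum_apply, Finset.mul_sum]

lemma traceAB_step {U U' E ι : Type} [Fintype U] [Fintype U'] [Fintype E] [DecidableEq E]
    [Fintype ι] (L : ι → Matrix U' U ℂ) (P : Matrix U' U' ℂ) (ω : Matrix (U × E) (U × E) ℂ) :
    traceAB ((P ⊗ₖ (1 : Matrix E E ℂ)) *
      ∑ k, (L k ⊗ₖ (1 : Matrix E E ℂ)) * ω * (L k ⊗ₖ (1 : Matrix E E ℂ))ᴴ)
      = traceAB (((∑ k, (L k)ᴴ * P * L k) ⊗ₖ (1 : Matrix E E ℂ)) * ω) := by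
  rw [Matrix.mul_sum, traceAB_sum, sum_kron, Matrix.sum_mul, traceAB_sum]
  refine Finset.sum_congr rfl fun k _ => ?_
  rw [conjTranspose_kronecker, conjTranspose_one, ← Matrix.mul_assoc, traceAB_cyc,
    ← Matrix.mul_assoc, ← Matrix.mul_assoc, ← mul_kronecker_mul, ← mul_kronecker_mul]
  simp

lemma run_form {l a b : ℕ} (p : Protocol l a b) :
    ∃ (A : p.Transcript → Key l → Matrix (Fin a) (Fin a) ℂ)
      (B : p.Transcript → Key l → Matrix (Fin b) (Fin b) ℂ),
      (∀ t z, (A t z).PosSemidef) ∧ (∀ t z, (B t z).PosSemidef) ∧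
      (∑ t, ∑ z, ∑ z', A t z ⊗ₖ B t z' = 1) ∧
      ∀ (E : Type) [Fintype E] [DecidableEq E] ω t z,
        p.run (E := E) ω t z = traceAB (((A t z.1 ⊗ₖ B t z.2) ⊗ₖ (1 : Matrix E E ℂ)) * ω) := by
  induction p with
  | output M N hM hN =>
    refine ⟨fun _ => M, fun _ => N, fun _ => hM.1, fun _ => hN.1, ?_, fun E _ _ ω t z => rfl⟩
    change ∑ _t : Unit, _ = _
    simp only [Finset.univ_unique, Finset.sum_singleton, ← kron_sum, ← sum_kron, hM.2, hN.2,
      one_kronecker_one]
  | @alice a b m r a' K hK next ih =>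
    choose A B hA hB hs hr using ih
    have key : ∀ i (X : Matrix (Fin (a' i)) (Fin (a' i)) ℂ) (Y : Matrix (Fin b) (Fin b) ℂ),
        (∑ k, (K i k)ᴴ * X * K i k) ⊗ₖ Y =
        ∑ k, (K i k ⊗ₖ (1 : Matrix (Fin b) (Fin b) ℂ))ᴴ * (X ⊗ₖ Y) *
          (K i k ⊗ₖ (1 : Matrix (Fin b) (Fin b) ℂ)) := by
      intro i X Y
      rw [sum_kron]
      refine Finset.sum_congr rfl fun k _ => ?_
      rw [conjTranspose_kronecker, ← mul_kronecker_mul, ← mul_kronecker_mul]; simp
    refine ⟨fun t z => ∑ k, (K t.1 k)ᴴ * A t.1 t.2 z * K t.1 k, fun t z => B t.1 t.2 z,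
      fun t z => posSemidef_sum _ fun k _ => (hA _ _ _).conjTranspose_mul_mul_same _,
      fun t z => hB _ _ _, ?_, fun E _ _ ω t z => ?_⟩
    · refine Eq.trans (Fintype.sum_sigma (α := fun i => (next i).Transcript) _) ?_
      have h1 : ∀ i, ∑ t : (next i).Transcript, ∑ z, ∑ z',
          (∑ k, (K i k)ᴴ * A i t z * K i k) ⊗ₖ B i t z'
          = (∑ k, (K i k)ᴴ * K i k) ⊗ₖ (1 : Matrix (Fin b) (Fin b) ℂ) := by
        intro i
        have h2 := key i 1 1
        rw [one_kronecker_one, ← hs i] at h2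
        simp only [Matrix.mul_one] at h2
        rw [h2]
        simp only [key, Matrix.mul_sum, Matrix.sum_mul]
        conv_rhs => rw [Finset.sum_comm]
        refine Finset.sum_congr rfl fun t _ => ?_
        conv_rhs => rw [Finset.sum_comm]
        refine Finset.sum_congr rfl fun z _ => ?_
        rw [Finset.sum_comm]
      simp only [h1]
      rw [← sum_kron, hK, one_kronecker_one]
    · change (next t.1).run _ t.2 z = _
      rw [hr, traceAB_step, key]
  | @bob a b m r b' K hK next ih =>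
    choose A B hA hB hs hr using ih
    have key : ∀ i (X : Matrix (Fin a) (Fin a) ℂ) (Y : Matrix (Fin (b' i)) (Fin (b' i)) ℂ),
        X ⊗ₖ (∑ k, (K i k)ᴴ * Y * K i k) =
        ∑ k, ((1 : Matrix (Fin a) (Fin a) ℂ) ⊗ₖ K i k)ᴴ * (X ⊗ₖ Y) *
          ((1 : Matrix (Fin a) (Fin a) ℂ) ⊗ₖ K i k) := by
      intro i X Y
      rw [kron_sum]
      refine Finset.sum_congr rfl fun k _ => ?_
      rw [conjTranspose_kronecker, ← mul_kronecker_mul, ← mul_kronecker_mul]; simp
    refine ⟨fun t z => A t.1 t.2 z, fun t z => ∑ k, (K t.1 k)ᴴ * B t.1 t.2 z * K t.1 k,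
      fun t z => hA _ _ _,
      fun t z => posSemidef_sum _ fun k _ => (hB _ _ _).conjTranspose_mul_mul_same _,
      ?_, fun E _ _ ω t z => ?_⟩
    · refine Eq.trans (Fintype.sum_sigma (α := fun i => (next i).Transcript) _) ?_
      have h1 : ∀ i, ∑ t : (next i).Transcript, ∑ z, ∑ z',
          A i t z ⊗ₖ (∑ k, (K i k)ᴴ * B i t z' * K i k)
          = (1 : Matrix (Fin a) (Fin a) ℂ) ⊗ₖ (∑ k, (K i k)ᴴ * K i k) := by
        intro i
        have h2 := key i 1 1
        rw [one_kronecker_one, ← hs i] at h2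
        simp only [Matrix.mul_one] at h2
        rw [h2]
        simp only [key, Matrix.mul_sum, Matrix.sum_mul]
        conv_rhs => rw [Finset.sum_comm]
        refine Finset.sum_congr rfl fun t _ => ?_
        conv_rhs => rw [Finset.sum_comm]
        refine Finset.sum_congr rfl fun z _ => ?_
        rw [Finset.sum_comm]
      simp only [h1]
      rw [← kron_sum, hK, one_kronecker_one]
    · change (next t.1).run _ t.2 z = _
      rw [hr, traceAB_step, key]

lemma traceAB_pure {U E : Type} [Fintype U] [Fintype E] [DecidableEq E] (P : Matrix U U ℂ)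
    (φ : U × E → ℂ) :
    traceAB ((P ⊗ₖ (1 : Matrix E E ℂ)) * vecMulVec φ (star φ)) =
      ((Matrix.of fun u e => φ (u, e))ᴴ * P * (Matrix.of fun u e => φ (u, e)))ᵀ := by
  ext e e'
  simp only [traceAB, Matrix.of_apply, Matrix.mul_apply, Fintype.sum_prod_type,
    kroneckerMap_apply, Matrix.one_apply, mul_ite, ite_mul, mul_one, mul_zero, zero_mul,
    Finset.sum_ite_eq, Finset.mem_univ, if_true, transpose_apply, conjTranspose_apply,
    vecMulVec_apply, Pi.star_apply, Finset.sum_mul]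
  rw [Finset.sum_comm]
  exact Finset.sum_congr rfl fun u _ => Finset.sum_congr rfl fun u' _ => by ring

lemma traceNorm_eq {ι : Type} [Fintype ι] [DecidableEq ι] (X : Matrix ι ι ℂ) :
    traceNorm X = (CFC.sqrt (Xᴴ * X)).trace.re := by
  have h := posSemidef_conjTranspose_mul_self X
  have : CFC.sqrt (Xᴴ * X) = cfc Real.sqrt (Xᴴ * X) := by
    rw [CFC.sqrt_eq_iff _ _ h.nonneg (fc_psd _ _ Real.sqrt_nonneg).nonneg, fc_mul]
    conv_rhs => rw [← fc_id h.1]
    exact fc_congr h _ _ fun x hx => Real.mul_self_sqrt hx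
  rw [this, traceNorm]

lemma test_bound {l : ℕ} {E T : Type} [Fintype E] [DecidableEq E] [Fintype T] [DecidableEq T]
    (r c : Key l × Key l → T → Matrix E E ℂ) (hr : ∀ z t, (r z t).PosSemidef)
    (h1 : ∀ z t, (1 - c z t).PosSemidef) (h2 : ∀ z t, (1 + c z t).PosSemidef)
    (σ : Matrix (E × T) (E × T) ℂ) (hσ : σ.PosSemidef) :
    (∑ z, ∑ t, (c z t * r z t).trace).re -
      (((2 : ℂ) ^ l)⁻¹ * ∑ z, (blockDiagonal (c (z, z)) * σ).trace).re ≤
    traceNorm ((blockDiagonal fun z => blockDiagonal fun t => r z t) - idealState l σ) := by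
  have hX : ((blockDiagonal fun z => blockDiagonal fun t => r z t) - idealState l σ).IsHermitian := by
    refine (psd_blockDiagonal fun z => psd_blockDiagonal fun t => hr z t).1.sub
      (psd_blockDiagonal fun z => ?_).1
    split_ifs
    · exact hσ.smul (by positivity)
    · exact PosSemidef.zero
  have e1 : (1 : Matrix ((E × T) × (Key l × Key l)) ((E × T) × (Key l × Key l)) ℂ)
      = blockDiagonal fun _ => blockDiagonal fun _ => 1 := by
    rw [← blockDiagonal_one]; congr 1; funext z; exact blockDiagonal_one.symm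
  have := tr_le_norm (W := blockDiagonal fun z => blockDiagonal fun t => c z t) hX
    (by
      rw [e1, ← blockDiagonal_sub]
      refine psd_blockDiagonal fun z => ?_
      rw [Pi.sub_apply, ← blockDiagonal_sub]
      exact psd_blockDiagonal fun t => h1 z t)
    (by
      rw [e1, ← blockDiagonal_add]
      refine psd_blockDiagonal fun z => ?_
      rw [Pi.add_apply, ← blockDiagonal_add]
      exact psd_blockDiagonal fun t => h2 z t)
  rw [traceNorm_eq]
  refine le_trans (le_of_eq ?_) this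
  rw [Matrix.mul_sub, trace_sub, idealState, ← blockDiagonal_mul, ← blockDiagonal_mul,
    trace_blockDiagonal, trace_blockDiagonal, Complex.sub_re]
  congr 2
  · refine Finset.sum_congr rfl fun z _ => ?_
    rw [← blockDiagonal_mul, trace_blockDiagonal]
  · rw [Fintype.sum_prod_type, Finset.mul_sum]
    refine Finset.sum_congr rfl fun z _ => ?_
    simp only [mul_ite, Matrix.mul_zero, apply_ite Matrix.trace, trace_zero, Finset.sum_ite_eq,
      Finset.mem_univ, if_true, Matrix.mul_smul, trace_smul, smul_eq_mul]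

lemma coarse {l : ℕ} {U U' E : Type} [Fintype U] [Fintype U'] [Fintype E]
    (A : Key (l + 1) → Matrix U U ℂ) (B : Key (l + 1) → Matrix U' U' ℂ)
    (V : Matrix (U × U') E ℂ) (g : Bool → Bool → Matrix E E ℂ) :
    ∑ z : Key (l + 1) × Key (l + 1), (g (z.1 0) (z.2 0) * (Vᴴ * (A z.1 ⊗ₖ B z.2) * V)).trace =
    ∑ x, ∑ y, (g x y * (Vᴴ * ((∑ z, if z 0 = x then A z else 0) ⊗ₖ
      (∑ z, if z 0 = y then B z else 0)) * V)).trace := by
  have h : ∀ x y, (g x y * (Vᴴ * ((∑ z, if z 0 = x then A z else 0) ⊗ₖ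
      (∑ z, if z 0 = y then B z else 0)) * V)).trace =
      ∑ z : Key (l + 1) × Key (l + 1), if z.1 0 = x then if z.2 0 = y then
        (g x y * (Vᴴ * (A z.1 ⊗ₖ B z.2) * V)).trace else 0 else 0 := by
    intro x y
    rw [Fintype.sum_prod_type, sum_kron]
    simp only [kron_sum, Matrix.mul_sum, Matrix.sum_mul, trace_sum]
    refine Finset.sum_congr rfl fun z _ => Finset.sum_congr rfl fun z' _ => ?_
    split_ifs <;> simp
  simp only [h]
  conv_rhs => enter [2, x]; rw [Finset.sum_comm]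
  rw [Finset.sum_comm (s := (Finset.univ : Finset Bool))]
  refine Finset.sum_congr rfl fun z _ => ?_
  simp only [Finset.sum_ite_irrel, Finset.sum_ite_eq, Finset.mem_univ, if_true,
    Finset.sum_const_zero]

lemma error_ge {l a b : ℕ} {E ι κ C D : Type} [Fintype E] [DecidableEq E] [Fintype ι] [Fintype κ]
    [Fintype C] [Fintype D] [DecidableEq C] [DecidableEq D]
    {K : ι → Matrix (Fin a) C ℂ} {L : κ → Matrix (Fin b) D ℂ} (hK : PT K) (hL : PT L)
    (w : C × D → ℂ) (φ : (Fin a × Fin b) × E → ℂ)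
    (hrep : Rep K L w ((Matrix.of fun u e => φ (u, e)) * (Matrix.of fun u e => φ (u, e))ᴴ))
    (hn : ((Matrix.of fun u e => φ (u, e)) * (Matrix.of fun u e => φ (u, e))ᴴ).trace = 1)
    (p : Protocol (l + 1) a b) (ε : ℝ) (h : HasError p φ ε) : 2 / 3 ≤ ε := by
  obtain ⟨σ, hσ, hε⟩ := h
  obtain ⟨A, B, hA, hB, hs, hr⟩ := run_form p
  set V : Matrix (Fin a × Fin b) E ℂ := Matrix.of fun u e => φ (u, e) with hV
  have hfin : finalState p (vecMulVec φ (star φ)) =
      blockDiagonal fun z => blockDiagonal fun t => (Vᴴ * (A t z.1 ⊗ₖ B t z.2) * V)ᵀ := by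
    unfold finalState
    simp only [hr, traceAB_pure, hV]
  rw [hfin] at hε
  set A' : p.Transcript → Bool → Matrix (Fin a) (Fin a) ℂ :=
    fun t x => ∑ z, if z 0 = x then A t z else 0 with hA'
  set B' : p.Transcript → Bool → Matrix (Fin b) (Fin b) ℂ :=
    fun t x => ∑ z, if z 0 = x then B t z else 0 with hB'
  have hA'p : ∀ t x, (A' t x).PosSemidef := fun t x => posSemidef_sum _ fun z _ => by
    split_ifs
    · exact hA t z
    · exact PosSemidef.zero
  have hB'p : ∀ t x, (B' t x).PosSemidef := fun t x => posSemidef_sum _ fun z _ => by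
    split_ifs
    · exact hB t z
    · exact PosSemidef.zero
  choose W hW1 hW2 hW using fun t => key_ineq hK hL w V hrep.trace (hA'p t false) (hA'p t true)
    (hB'p t false) (hB'p t true)
  have hrp : ∀ (z : Key (l + 1) × Key (l + 1)) (t : p.Transcript),
      ((Vᴴ * (A t z.1 ⊗ₖ B t z.2) * V)ᵀ).PosSemidef := fun z t =>
    (((hA t z.1).kronecker (hB t z.2)).conjTranspose_mul_mul_same V).transpose
  have gen : ∀ g : p.Transcript → Bool → Bool → Matrix E E ℂ,
      (∀ t x y, (1 - g t x y).PosSemidef) → (∀ t x y, (1 + g t x y).PosSemidef) →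
      (∑ t, ∑ x, ∑ y, (g t x y * (Vᴴ * (A' t x ⊗ₖ B' t y) * V)).trace).re -
        (((2 : ℂ) ^ (l + 1))⁻¹ * ∑ z : Key (l + 1),
          (blockDiagonal (fun t => (g t (z 0) (z 0))ᵀ) * σ).trace).re ≤ ε := by
    intro g g1 g2
    have := test_bound (fun z t => (Vᴴ * (A t z.1 ⊗ₖ B t z.2) * V)ᵀ)
      (fun z t => (g t (z.1 0) (z.2 0))ᵀ) hrp
      (fun z t => by simpa using (g1 t (z.1 0) (z.2 0)).transpose)
      (fun z t => by simpa using (g2 t (z.1 0) (z.2 0)).transpose) σ hσ.1
    refine le_trans (le_of_eq ?_) (this.trans hε)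
    congr 2
    rw [Finset.sum_comm (s := (Finset.univ : Finset (Key (l + 1) × Key (l + 1))))]
    refine Finset.sum_congr rfl fun t _ => ?_
    rw [← coarse (A t) (B t) V (g t)]
    refine Finset.sum_congr rfl fun z _ => ?_
    rw [← transpose_mul, trace_transpose, trace_mul_comm]
  have tot : ∑ t, ∑ x, ∑ y, ((1 : Matrix E E ℂ) * (Vᴴ * (A' t x ⊗ₖ B' t y) * V)).trace = 1 := by
    have : ∀ t, ∑ x, ∑ y, ((1 : Matrix E E ℂ) * (Vᴴ * (A' t x ⊗ₖ B' t y) * V)).trace
        = (Vᴴ * (∑ z, ∑ z', A t z ⊗ₖ B t z') * V).trace := by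
      intro t
      rw [← coarse (A t) (B t) V (fun _ _ => 1), Fintype.sum_prod_type]
      simp only [Matrix.mul_sum, Matrix.sum_mul, trace_sum, Matrix.one_mul]
    simp only [this]
    rw [← trace_sum, ← Matrix.sum_mul, ← Matrix.mul_sum, hs, Matrix.mul_one, trace_mul_comm, hn]
  have two : ((1 : Matrix E E ℂ) + 1).PosSemidef := PosSemidef.one.add PosSemidef.one
  have t1 := gen (fun t x y => if x = y then (if x then -W t else W t) else 1)
    (fun t x y => by
      cases x <;> cases y <;> simp [hW1, hW2, PosSemidef.zero])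
    (fun t x y => by
      cases x <;> cases y <;> simp [hW1, hW2, two, ← sub_eq_add_neg])
  have t2 := gen (fun t x y => if x = y then -1 else 1)
    (fun t x y => by
      cases x <;> cases y <;> simp [two, PosSemidef.zero])
    (fun t x y => by
      cases x <;> cases y <;> simp [two, PosSemidef.zero])
  have i1 : ∑ z : Key (l + 1), (blockDiagonal (fun t =>
      (if z 0 = z 0 then (if z 0 then -W t else W t) else 1)ᵀ) * σ).trace = 0 := by
    rw [← (Fin.consEquiv fun _ : Fin (l + 1) => Bool).sum_comp, Fintype.sum_prod_type,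
      Fintype.sum_bool, ← Finset.sum_add_distrib]
    refine Finset.sum_eq_zero fun z _ => ?_
    rw [← trace_add, ← Matrix.add_mul, ← blockDiagonal_add]
    have : ((fun t => (if (Fin.consEquiv fun _ : Fin (l + 1) => Bool) (true, z) 0 =
        (Fin.consEquiv fun _ : Fin (l + 1) => Bool) (true, z) 0 then
        (if (Fin.consEquiv fun _ : Fin (l + 1) => Bool) (true, z) 0 then -W t else W t) else 1)ᵀ) +
        fun t => (if (Fin.consEquiv fun _ : Fin (l + 1) => Bool) (false, z) 0 =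
        (Fin.consEquiv fun _ : Fin (l + 1) => Bool) (false, z) 0 then
        (if (Fin.consEquiv fun _ : Fin (l + 1) => Bool) (false, z) 0 then -W t else W t)
          else 1)ᵀ) = 0 := by
      funext t
      simp [Fin.consEquiv]
    rw [this]; simp
  have i2 : ((2 : ℂ) ^ (l + 1))⁻¹ * ∑ z : Key (l + 1), (blockDiagonal (fun _ : p.Transcript =>
      (if z 0 = z 0 then (-1 : Matrix E E ℂ) else 1)ᵀ) * σ).trace = -1 := by
    have : ∀ z : Key (l + 1), (blockDiagonal (fun _ : p.Transcript =>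
      (if z 0 = z 0 then (-1 : Matrix E E ℂ) else 1)ᵀ) * σ).trace = -1 := by
      intro z
      have e : (fun _ : p.Transcript => (if z 0 = z 0 then (-1 : Matrix E E ℂ) else 1)ᵀ)
          = -1 := by funext t; simp
      rw [e, blockDiagonal_neg, blockDiagonal_one, Matrix.neg_mul, Matrix.one_mul, trace_neg, hσ.2]
    rw [Finset.sum_congr rfl fun z _ => this z]
    simp
  rw [i1] at t1
  rw [i2] at t2
  have tot' := congrArg Complex.re tot
  have hsum := Finset.sum_le_sum fun t (_ : t ∈ Finset.univ) => hW t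
  simp only [Fintype.sum_bool, if_true, Bool.true_eq_false, Bool.false_eq_true, if_false,
    Matrix.neg_mul, Matrix.one_mul, trace_neg, Complex.re_sum, Complex.add_re, Complex.neg_re,
    mul_zero, Complex.zero_re, Complex.one_re, Finset.sum_add_distrib, Finset.sum_sub_distrib,
    Finset.sum_neg_distrib] at t1 t2 tot' hsum
  linarith

theorem result : ∃ ρ : Matrix (Fin 6 × Fin 10) (Fin 6 × Fin 10) ℂ, IsState ρ ∧ ¬ Separable ρ ∧
    (∃ (e : ℕ) (ψ : (Fin 6 × Fin 10) × Fin e → ℂ), Purifies ψ ρ) ∧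
    ∀ (e : ℕ) (ψ : (Fin 6 × Fin 10) × Fin e → ℂ), Purifies ψ ρ →
      keyRate ψ = 0 ∧
      ∀ (n l : ℕ) (p : Protocol l (6 ^ n) (10 ^ n)) (ε : ℝ), 1 ≤ l →
        HasError p (tensorPow ψ n) ε → 2 / 3 ≤ ε := by
  refine ⟨rho, ⟨rho_psd, rho_trace⟩, ?_, ?_, fun e ψ hψ => ?_⟩
  · rintro ⟨k, p, α, β, hp, hs, hα, hβ, h⟩
    exact rho_not_sep p α β hp hs hα hβ h
  · refine ⟨_, fun x => VV x.1 ((Fintype.equivFin _).symm x.2), fun u v => ?_⟩
    rw [rho, Matrix.mul_apply, ← (Fintype.equivFin _).symm.sum_comp]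
    rfl
  · have main : ∀ (n l : ℕ) (p : Protocol l (6 ^ n) (10 ^ n)) (ε : ℝ), 1 ≤ l →
        HasError p (tensorPow ψ n) ε → 2 / 3 ≤ ε := by
      intro n l p ε hl h
      obtain ⟨l, rfl⟩ : ∃ l', l = l' + 1 := ⟨l - 1, by omega⟩
      have hent : ((Matrix.of fun u k => tensorPow ψ n (u, k)) *
          (Matrix.of fun u k => tensorPow ψ n (u, k))ᴴ) = fun u u' =>
          ∏ i, rho (finFunctionFinEquiv.symm u.1 i, finFunctionFinEquiv.symm u.2 i)
            (finFunctionFinEquiv.symm u'.1 i, finFunctionFinEquiv.symm u'.2 i) := by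
        funext u u'
        simp only [hψ _ _, Matrix.mul_apply, conjTranspose_apply, Matrix.of_apply, tensorPow]
        rw [Finset.prod_univ_sum, Fintype.piFinset_univ]
        refine Finset.sum_congr rfl fun k _ => ?_
        rw [star_prod, Finset.prod_mul_distrib]
      refine error_ge ((KA_PT.pw n).sub finFunctionFinEquiv.symm)
        ((KB_PT.pw n).sub finFunctionFinEquiv.symm) (fun c => ∏ i, (ss • eps) (c.1 i, c.2 i))
        _ ?_ ?_ p ε h
      · rw [hent]
        exact (rho_rep.pw n).sub finFunctionFinEquiv.symm finFunctionFinEquiv.symm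
      · rw [hent]
        have h1 := sum_pair (N := n) (fun _ (x : Fin 6 × Fin 10) => rho x x)
        have h2 : ∑ x, rho x x = 1 := rho_trace
        simp only [h2, Finset.prod_const_one] at h1
        rw [← h1, ← (finFunctionFinEquiv.symm.prodCongr finFunctionFinEquiv.symm).sum_comp]
        rfl
    refine ⟨?_, main⟩
    unfold keyRate
    simp only [ENNReal.iSup_eq_zero]
    intro l p ε hε h
    have h1 : ∀ᶠ n in atTop, ε n < 2 / 3 := hε.eventually (gt_mem_nhds (by norm_num))
    have h2 : ∀ᶠ n in atTop, (l n : ℝ≥0∞) / (n : ℝ≥0∞) = 0 := by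
      filter_upwards [h1] with n hn
      have : l n = 0 := by
        by_contra hc
        have := main n (l n) (p n) (ε n) (by omega) (h n)
        linarith
      simp [this]
    rw [liminf_congr h2, liminf_const]

end Vale.Agent.Results.P372.ZeroKey
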